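import Mathlib

/-! A function of many signs whose products expand into pure values. -/

namespace Vale.Agent.P130

open Finset

lemma bits {K : Type} [Field K] [Fintype K] [Algebra (ZMod 2) K] {s : ℕ}
    (b : Module.Basis (Fin s) (ZMod 2) K) (hc : Fintype.card K = 2 ^ s) {ψ : AddChar K ℂ}
    (hψ : ψ.IsPrimitive) : ∃ (E : K ≃ Finset (Fin s)) (U : (Fin s → ℝ) → K),
      ∀ e : Fin s → ℝ, (∀ j, e j = 1 ∨ e j = -1) → ∀ n, ψ (n * U e) = ((∏ j ∈ E n, e j : ℝ) : ℂ) := by
  classical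
  have h2 : ∀ x : K, x + x = 0 := fun x => by
    rw [← two_smul (ZMod 2) x, show (2 : ZMod 2) = 0 from rfl, zero_smul]
  have hpm : ∀ x, ψ x = 1 ∨ ψ x = -1 := fun x => by
    have : ψ x * ψ x = 1 := by rw [← AddChar.map_add_eq_mul, h2, AddChar.map_zero_eq_one]
    exact mul_self_eq_one_iff.1 this
  have hsum : ∀ (A : Finset (Fin s)) (f : Fin s → K), ψ (∑ j ∈ A, f j) = ∏ j ∈ A, ψ (f j) := by
    intro A f
    induction A using Finset.induction_on with
    | empty => simp
    | insert a s ha ih => rw [Finset.sum_insert ha, Finset.prod_insert ha, AddChar.map_add_eq_mul, ih]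
  set S : K → Finset (Fin s) := fun n => univ.filter fun j => ψ (n * b j) = -1 with hS
  have hinj : Function.Injective S := by
    intro n n' h
    by_contra hne
    refine hψ (sub_ne_zero.2 hne) (AddChar.ext _ _ fun x => ?_)
    have h1 : ∀ j, ψ ((n - n') * b j) = 1 := by
      intro j
      have h3 : ψ (n * b j) = -1 ↔ ψ (n' * b j) = -1 := by
        have := Finset.ext_iff.1 h j
        simpa [hS] using this
      have h4 : (n - n') * b j = n * b j + n' * b j := by
        linear_combination (-1 : K) * h2 (n' * b j)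
      rw [h4, AddChar.map_add_eq_mul]
      rcases hpm (n * b j) with h5 | h5 <;> rcases hpm (n' * b j) with h6 | h6
      · rw [h5, h6]; simp
      · rw [h3.2 h6, h6]; simp
      · rw [h3.1 h5, h5]; simp
      · rw [h5, h6]; simp
    rw [AddChar.mulShift_apply, AddChar.one_apply, ← b.sum_repr x, Finset.mul_sum, hsum]
    refine Finset.prod_eq_one fun j _ => ?_
    have hc : ∀ c : ZMod 2, c = 0 ∨ c = 1 := by decide
    rcases hc (b.repr x j) with h | h <;> rw [h]
    · simp
    · simpa using h1 j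
  refine ⟨Equiv.ofBijective S ((Fintype.bijective_iff_injective_and_card S).2 ⟨hinj, by simp [hc]⟩),
    fun e => ∑ j with e j = -1, b j, fun e he n => ?_⟩
  rw [Finset.mul_sum, hsum, Equiv.ofBijective_apply, Complex.ofReal_prod, Finset.prod_filter,
    Finset.prod_filter]
  refine Finset.prod_congr rfl fun j _ => ?_
  rcases he j with h | h <;> rcases hpm (n * b j) with h' | h' <;> simp [h, h'] <;> norm_num

theorem spread {s : ℕ} (hs : 0 < s) : ∃ (x : Finset (Fin s ⊕ Fin s) → ℕ)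
    (X : (Fin s ⊕ Fin s → ℝ) → ℕ), (∀ S, x S < 2 ^ s) ∧ (∀ e, X e < 2 ^ s) ∧
    ∀ e : Fin s ⊕ Fin s → ℝ, (∀ j, e j = 1 ∨ e j = -1) → ∀ g : ℕ → ℂ, ∑ j ∈ range (2 ^ s), g j = 0 →
      (2 ^ s : ℂ) * g (X e) = ∑ S, g (x S) * ((∏ j ∈ S, e j : ℝ) : ℂ) := by
  classical
  let K := GaloisField 2 s
  let _ : Fintype K := Fintype.ofFinite K
  have hc : Fintype.card K = 2 ^ s := by
    rw [← Nat.card_eq_fintype_card]; exact GaloisField.card 2 s hs.ne'
  have hψ := AddChar.FiniteField.primitiveChar_to_Complex_isPrimitive K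
  set ψ := AddChar.FiniteField.primitiveChar_to_Complex K
  obtain ⟨E, U, hE⟩ := bits (Module.finBasisOfFinrankEq (ZMod 2) K (GaloisField.finrank 2 hs.ne')) hc hψ
  set I : K ≃ Fin (2 ^ s) := Fintype.equivFinOfCardEq hc
  refine ⟨fun S => I (E.symm S.toRight / E.symm S.toLeft),
    fun e => I (-U (e ∘ Sum.inl) / U (e ∘ Sum.inr)), fun _ => Fin.is_lt _, fun _ => Fin.is_lt _,
    fun e he g hg => ?_⟩
  set u := U (e ∘ Sum.inl)
  set v := U (e ∘ Sum.inr)
  set f : K → ℂ := fun t => g (I t) with hf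
  have hf0 : ∑ t, f t = 0 := by
    rw [← hg, ← Fin.sum_univ_eq_sum_range]; exact Equiv.sum_comp I fun j => g j
  have e1 : ∑ S : Finset (Fin s ⊕ Fin s), g (I (E.symm S.toRight / E.symm S.toLeft)) *
      ((∏ j ∈ S, e j : ℝ) : ℂ) = ∑ n1, ∑ n2, f (n2 / n1) * (ψ (n1 * u) * ψ (n2 * v)) := by
    rw [← Fintype.sum_prod_type', ← Equiv.sum_comp ((E.prodCongr E).trans Finset.sumEquiv.toEquiv.symm)]
    refine Finset.sum_congr rfl fun n _ => ?_
    rw [hE (e ∘ Sum.inl) fun j => he _, hE (e ∘ Sum.inr) fun j => he _]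
    simp [hf, Finset.prod_disjSum]
  have hs : ∀ c : K, ∑ n, ψ (n * c) = if c = 0 then (2 ^ s : ℂ) else 0 := fun c => by
    rw [AddChar.sum_mulShift c hψ, hc]; split_ifs <;> simp
  have e2 : ∀ n1 : K, ∑ n2, f (n2 / n1) * (ψ (n1 * u) * ψ (n2 * v)) =
      ∑ t, f t * ψ (n1 * (u + t * v)) + if n1 = 0 then f 0 * ∑ n, ψ (n * v) else 0 := by
    intro n1
    split_ifs with h
    · subst h; simp [hf0, Finset.mul_sum]
    · rw [add_zero, ← Equiv.sum_comp (Equiv.mulLeft₀ n1 h)]
      refine Finset.sum_congr rfl fun t _ => ?_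
      rw [Equiv.mulLeft₀_apply, mul_div_cancel_left₀ _ h, ← AddChar.map_add_eq_mul]
      congr 2; ring
  rw [e1, Finset.sum_congr rfl fun n1 _ => e2 n1, Finset.sum_add_distrib, Finset.sum_comm]
  simp_rw [← Finset.mul_sum, hs]
  rw [Finset.sum_ite_eq' univ (0 : K), if_pos (Finset.mem_univ _)]
  change _ * f (-u / v) = _
  by_cases hv : v = 0
  · simp only [hv, mul_zero, add_zero, div_zero, if_true]
    rw [← Finset.sum_mul, hf0]; ring
  · rw [if_neg hv, Finset.sum_eq_single (-u / v)]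
    · rw [if_pos (by rw [div_mul_cancel₀ _ hv]; ring)]; ring
    · intro t _ ht
      rw [if_neg fun h => ht (by rw [eq_div_iff hv]; linear_combination h), mul_zero]
    · simp

end Vale.Agent.P130
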